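import Mathlib

namespace Vale.Agent.P201

open MonoidAlgebra

variable {K : Type*} [Field K] {G : Type*} [Group G]

theorem one_mem_closure_of_finite_left {S : Set G} {B : Set G} (hB : B.Finite) (hne : B.Nonempty)
    (h : ∀ b ∈ B, ∃ s ∈ S, s⁻¹ * b ∈ B) : (1 : G) ∈ Subsemigroup.closure S := by
  by_contra h1
  have : Finite B := hB
  let r : B → B → Prop := fun b' b => ∃ w ∈ Subsemigroup.closure S, (b : G) = w * b'
  have : IsTrans B r :=
    ⟨fun a b c ⟨w, hw, e⟩ ⟨w', hw', e'⟩ => ⟨w' * w, mul_mem hw' hw, by rw [e', e, mul_assoc]⟩⟩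
  have : Std.Irrefl r := ⟨fun a ⟨w, hw, e⟩ => h1 (by
    have : w = 1 := by simpa using e.symm
    exact this ▸ hw)⟩
  have wf : WellFounded r := Finite.wellFounded_of_trans_of_irrefl r
  obtain ⟨b0, hb0⟩ := hne
  obtain ⟨m, -, hm⟩ := wf.has_min Set.univ ⟨⟨b0, hb0⟩, trivial⟩
  obtain ⟨s, hs, hsm⟩ := h m m.2
  exact hm ⟨s⁻¹ * m, hsm⟩ trivial ⟨s, Subsemigroup.subset_closure hs, by simp⟩

theorem one_mem_closure_of_finite_right {S : Set G} {B : Set G} (hB : B.Finite) (hne : B.Nonempty)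
    (h : ∀ b ∈ B, ∃ s ∈ S, b * s⁻¹ ∈ B) : (1 : G) ∈ Subsemigroup.closure S := by
  by_contra h1
  have : Finite B := hB
  let r : B → B → Prop := fun b' b => ∃ w ∈ Subsemigroup.closure S, (b : G) = b' * w
  have : IsTrans B r :=
    ⟨fun a b c ⟨w, hw, e⟩ ⟨w', hw', e'⟩ => ⟨w * w', mul_mem hw hw', by rw [e', e, mul_assoc]⟩⟩
  have : Std.Irrefl r := ⟨fun a ⟨w, hw, e⟩ => h1 (by
    have : w = 1 := by simpa using e.symm
    exact this ▸ hw)⟩
  have wf : WellFounded r := Finite.wellFounded_of_trans_of_irrefl r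
  obtain ⟨b0, hb0⟩ := hne
  obtain ⟨m, -, hm⟩ := wf.has_min Set.univ ⟨⟨b0, hb0⟩, trivial⟩
  obtain ⟨s, hs, hsm⟩ := h m m.2
  exact hm ⟨m * s⁻¹, hsm⟩ trivial ⟨s, Subsemigroup.subset_closure hs, by simp⟩

theorem one_mem_closure_conj {S T : Set G} (c : G) (hST : ∀ s ∈ S, c * s * c⁻¹ ∈ T)
    (h : (1 : G) ∈ Subsemigroup.closure S) : (1 : G) ∈ Subsemigroup.closure T := by
  have hgen : ∀ w ∈ Subsemigroup.closure S, c * w * c⁻¹ ∈ Subsemigroup.closure T := by
    intro w hw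
    induction hw using Subsemigroup.closure_induction with
    | mem s hs => exact Subsemigroup.subset_closure (hST s hs)
    | mul u w _ _ hu hw =>
      have : c * (u * w) * c⁻¹ = (c * u * c⁻¹) * (c * w * c⁻¹) := by group
      rw [this]; exact mul_mem hu hw
  simpa using hgen 1 h

theorem not_one_mem_closure_subsingleton (hG : ∀ g : G, g ≠ 1 → ¬ IsOfFinOrder g) {S : Set G}
    {t : G} (ht : t ≠ 1) (hS : S ⊆ {t}) : (1 : G) ∉ Subsemigroup.closure S := by
  intro h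
  have hgen : ∀ w ∈ Subsemigroup.closure S, ∃ n : ℕ, 0 < n ∧ w = t ^ n := by
    intro w hw
    induction hw using Subsemigroup.closure_induction with
    | mem s hs => exact ⟨1, one_pos, by rw [pow_one]; exact hS hs⟩
    | mul u w _ _ hu hw =>
      obtain ⟨n, hn, rfl⟩ := hu
      obtain ⟨m, _, rfl⟩ := hw
      exact ⟨n + m, by omega, (pow_add t n m).symm⟩
  obtain ⟨n, hn, h1⟩ := hgen 1 h
  exact hG t ht (isOfFinOrder_iff_pow_eq_one.mpr ⟨n, hn, h1.symm⟩)

theorem coeff_mul_left_sum (α β : MonoidAlgebra K G) (h : G) :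
    (α * β).coeff h = ∑ g ∈ α.coeff.support, α.coeff g * β.coeff (g⁻¹ * h) := by
  rw [coeff_mul_apply_left]; rfl

theorem coeff_mul_right_sum (β α : MonoidAlgebra K G) (h : G) :
    (β * α).coeff h = ∑ g ∈ α.coeff.support, β.coeff (h * g⁻¹) * α.coeff g := by
  rw [coeff_mul_apply_right]; rfl

theorem na_step_left {Γ₀ : Type*} [LinearOrderedCommGroupWithZero Γ₀] (v : Valuation K Γ₀)
    {α β : MonoidAlgebra K G} (h0 : α * β = 0) {g0 b : G}
    (hg0 : α.coeff g0 ≠ 0) (hmaxα : ∀ g, v (α.coeff g) ≤ v (α.coeff g0))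
    (hb : β.coeff b ≠ 0) (hmaxβ : ∀ h, v (β.coeff h) ≤ v (β.coeff b)) :
    ∃ g, g ≠ g0 ∧ v (α.coeff g) = v (α.coeff g0) ∧
      v (β.coeff (g⁻¹ * (g0 * b))) = v (β.coeff b) := by
  classical
  by_contra hne
  push Not at hne
  have key := coeff_mul_left_sum α β (g0 * b)
  rw [h0] at key
  have hmem : g0 ∈ α.coeff.support := Finsupp.mem_support_iff.mpr hg0
  rw [← Finset.add_sum_erase _ _ hmem] at key
  simp only [coeff_zero, Finsupp.coe_zero, Pi.zero_apply, inv_mul_cancel_left] at key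
  have hX : v (α.coeff g0) ≠ 0 := (Valuation.ne_zero_iff v).mpr hg0
  have hY : v (β.coeff b) ≠ 0 := (Valuation.ne_zero_iff v).mpr hb
  have hlt : v (∑ g ∈ α.coeff.support.erase g0, α.coeff g * β.coeff (g⁻¹ * (g0 * b)))
      < v (α.coeff g0) * v (β.coeff b) := by
    apply Valuation.map_sum_lt v (mul_ne_zero hX hY)
    intro g hg
    have hgne : g ≠ g0 := (Finset.mem_erase.mp hg).1
    rw [map_mul]
    rcases lt_or_eq_of_le (hmaxα g) with h1 | h1
    · calc v (α.coeff g) * v (β.coeff (g⁻¹ * (g0 * b)))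
          ≤ v (α.coeff g) * v (β.coeff b) := mul_le_mul_right (hmaxβ _) _
        _ < v (α.coeff g0) * v (β.coeff b) := by
          exact mul_lt_mul_of_pos_right h1 (zero_lt_iff.mpr hY)
    · have h2 := lt_of_le_of_ne (hmaxβ (g⁻¹ * (g0 * b))) (hne g hgne h1)
      rw [h1]
      exact mul_lt_mul_of_pos_left h2 (zero_lt_iff.mpr hX)
  have heq : ∑ g ∈ α.coeff.support.erase g0, α.coeff g * β.coeff (g⁻¹ * (g0 * b))
      = - (α.coeff g0 * β.coeff b) := by
    linear_combination -key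
  rw [heq, Valuation.map_neg, map_mul] at hlt
  exact lt_irrefl _ hlt

theorem na_step_right {Γ₀ : Type*} [LinearOrderedCommGroupWithZero Γ₀] (v : Valuation K Γ₀)
    {α β : MonoidAlgebra K G} (h0 : β * α = 0) {g0 b : G}
    (hg0 : α.coeff g0 ≠ 0) (hmaxα : ∀ g, v (α.coeff g) ≤ v (α.coeff g0))
    (hb : β.coeff b ≠ 0) (hmaxβ : ∀ h, v (β.coeff h) ≤ v (β.coeff b)) :
    ∃ g, g ≠ g0 ∧ v (α.coeff g) = v (α.coeff g0) ∧
      v (β.coeff (b * g0 * g⁻¹)) = v (β.coeff b) := by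
  classical
  by_contra hne
  push Not at hne
  have key := coeff_mul_right_sum β α (b * g0)
  rw [h0] at key
  have hmem : g0 ∈ α.coeff.support := Finsupp.mem_support_iff.mpr hg0
  rw [← Finset.add_sum_erase _ _ hmem] at key
  simp only [coeff_zero, Finsupp.coe_zero, Pi.zero_apply, mul_inv_cancel_right] at key
  have hX : v (α.coeff g0) ≠ 0 := (Valuation.ne_zero_iff v).mpr hg0
  have hY : v (β.coeff b) ≠ 0 := (Valuation.ne_zero_iff v).mpr hb
  have hlt : v (∑ g ∈ α.coeff.support.erase g0, β.coeff (b * g0 * g⁻¹) * α.coeff g)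
      < v (α.coeff g0) * v (β.coeff b) := by
    apply Valuation.map_sum_lt v (mul_ne_zero hX hY)
    intro g hg
    have hgne : g ≠ g0 := (Finset.mem_erase.mp hg).1
    rw [map_mul, mul_comm]
    rcases lt_or_eq_of_le (hmaxα g) with h1 | h1
    · calc v (α.coeff g) * v (β.coeff (b * g0 * g⁻¹))
          ≤ v (α.coeff g) * v (β.coeff b) := mul_le_mul_right (hmaxβ _) _
        _ < v (α.coeff g0) * v (β.coeff b) := by
          exact mul_lt_mul_of_pos_right h1 (zero_lt_iff.mpr hY)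
    · have h2 := lt_of_le_of_ne (hmaxβ (b * g0 * g⁻¹)) (hne g hgne h1)
      rw [h1]
      exact mul_lt_mul_of_pos_left h2 (zero_lt_iff.mpr hX)
  have heq : ∑ g ∈ α.coeff.support.erase g0, β.coeff (b * g0 * g⁻¹) * α.coeff g
      = - (α.coeff g0 * β.coeff b) := by
    linear_combination -key
  rw [heq, Valuation.map_neg, map_mul] at hlt
  exact lt_irrefl _ hlt

theorem exists_max_val {Γ₀ : Type*} [LinearOrderedCommGroupWithZero Γ₀] (v : Valuation K Γ₀)
    {β : MonoidAlgebra K G} (hβ : β ≠ 0) :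
    ∃ b, β.coeff b ≠ 0 ∧ ∀ h, v (β.coeff h) ≤ v (β.coeff b) := by
  have hne : β.coeff.support.Nonempty := by
    rw [Finsupp.support_nonempty_iff]; simpa using hβ
  obtain ⟨b, hb, hmax⟩ := Finset.exists_max_image β.coeff.support (fun h => v (β.coeff h)) hne
  refine ⟨b, Finsupp.mem_support_iff.mp hb, fun h => ?_⟩
  by_cases hh : h ∈ β.coeff.support
  · exact hmax h hh
  · rw [Finsupp.notMem_support_iff.mp hh, map_zero]; exact zero_le

theorem one_mem_closure_of_mul_eq_zero_left {Γ₀ : Type*} [LinearOrderedCommGroupWithZero Γ₀]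
    (v : Valuation K Γ₀) {α β : MonoidAlgebra K G} (h0 : α * β = 0) (hβ : β ≠ 0) {g0 : G}
    (hg0 : α.coeff g0 ≠ 0) (hmaxα : ∀ g, v (α.coeff g) ≤ v (α.coeff g0)) :
    (1 : G) ∈ Subsemigroup.closure
      {s | ∃ g, g ≠ g0 ∧ v (α.coeff g) = v (α.coeff g0) ∧ s = g0⁻¹ * g} := by
  obtain ⟨b, hb, hmaxβ⟩ := exists_max_val v hβ
  have hY : v (β.coeff b) ≠ 0 := (Valuation.ne_zero_iff v).mpr hb
  have hsub : {h | v (β.coeff h) = v (β.coeff b)} ⊆ (β.coeff.support : Set G) := by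
    intro h hh
    simp only [Set.mem_ofPred_eq] at hh
    simp only [Finset.mem_coe, Finsupp.mem_support_iff]
    intro h0'
    rw [h0', map_zero] at hh
    exact hY hh.symm
  apply one_mem_closure_of_finite_left (B := {h | v (β.coeff h) = v (β.coeff b)})
    ((Finset.finite_toSet _).subset hsub) ⟨b, rfl⟩
  intro b' hb'
  simp only [Set.mem_ofPred_eq] at hb'
  have hb'0 : β.coeff b' ≠ 0 := Finsupp.mem_support_iff.mp (hsub hb')
  obtain ⟨g, hg, hg1, hg2⟩ := na_step_left v h0 hg0 hmaxα hb'0 (fun h => hb' ▸ hmaxβ h)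
  refine ⟨g0⁻¹ * g, ⟨g, hg, hg1, rfl⟩, ?_⟩
  simp only [Set.mem_ofPred_eq, mul_inv_rev, inv_inv]
  rw [mul_assoc, hg2, hb']

theorem one_mem_closure_of_mul_eq_zero_right {Γ₀ : Type*} [LinearOrderedCommGroupWithZero Γ₀]
    (v : Valuation K Γ₀) {α β : MonoidAlgebra K G} (h0 : β * α = 0) (hβ : β ≠ 0) {g0 : G}
    (hg0 : α.coeff g0 ≠ 0) (hmaxα : ∀ g, v (α.coeff g) ≤ v (α.coeff g0)) :
    (1 : G) ∈ Subsemigroup.closure
      {s | ∃ g, g ≠ g0 ∧ v (α.coeff g) = v (α.coeff g0) ∧ s = g0⁻¹ * g} := by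
  obtain ⟨b, hb, hmaxβ⟩ := exists_max_val v hβ
  have hY : v (β.coeff b) ≠ 0 := (Valuation.ne_zero_iff v).mpr hb
  have hsub : {h | v (β.coeff h) = v (β.coeff b)} ⊆ (β.coeff.support : Set G) := by
    intro h hh
    simp only [Set.mem_ofPred_eq] at hh
    simp only [Finset.mem_coe, Finsupp.mem_support_iff]
    intro h0'
    rw [h0', map_zero] at hh
    exact hY hh.symm
  have h1 : (1 : G) ∈ Subsemigroup.closure
      {s | ∃ g, g ≠ g0 ∧ v (α.coeff g) = v (α.coeff g0) ∧ s = g * g0⁻¹} := by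
    apply one_mem_closure_of_finite_right (B := {h | v (β.coeff h) = v (β.coeff b)})
      ((Finset.finite_toSet _).subset hsub) ⟨b, rfl⟩
    intro b' hb'
    simp only [Set.mem_ofPred_eq] at hb'
    have hb'0 : β.coeff b' ≠ 0 := Finsupp.mem_support_iff.mp (hsub hb')
    obtain ⟨g, hg, hg1, hg2⟩ := na_step_right v h0 hg0 hmaxα hb'0 (fun h => hb' ▸ hmaxβ h)
    refine ⟨g * g0⁻¹, ⟨g, hg, hg1, rfl⟩, ?_⟩
    simp only [Set.mem_ofPred_eq, mul_inv_rev, inv_inv]
    rw [← mul_assoc, hg2, hb']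
  refine one_mem_closure_conj g0⁻¹ ?_ h1
  rintro s ⟨g, hg, hg1, rfl⟩
  exact ⟨g, hg, hg1, by group⟩

end Vale.Agent.P201
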