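import Vale.Agent.P201.Basic

namespace Vale.Agent.P201

open MonoidAlgebra

variable {K : Type*} [Field K] {G : Type*} [Group G]

theorem dom_core {ι : Type*} [DecidableEq ι] (v : AbsoluteValue K ℝ) (s : Finset ι) (a u : ι → K)
    {i0 : ι} (hi0 : i0 ∈ s) (hsum : ∑ i ∈ s, a i * u i = 0)
    (hdom : ∑ i ∈ s.erase i0, v (a i) ≤ v (a i0)) (hmax : ∀ i ∈ s, v (u i) ≤ v (u i0)) :
    ∀ i ∈ s.erase i0, a i ≠ 0 → v (u i) = v (u i0) := by
  rw [← Finset.add_sum_erase _ _ hi0] at hsum
  have heq : ∑ i ∈ s.erase i0, a i * u i = - (a i0 * u i0) := by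
    linear_combination hsum
  have h1 : v (a i0) * v (u i0) ≤ ∑ i ∈ s.erase i0, v (a i) * v (u i) := by
    calc v (a i0) * v (u i0) = v (- (a i0 * u i0)) := by
          rw [AbsoluteValue.map_neg, map_mul]
      _ = v (∑ i ∈ s.erase i0, a i * u i) := by rw [heq]
      _ ≤ ∑ i ∈ s.erase i0, v (a i * u i) := v.sum_le _ _
      _ = _ := by simp only [map_mul]
  have h2 : (∑ i ∈ s.erase i0, v (a i)) * v (u i0) ≤ v (a i0) * v (u i0) :=
    mul_le_mul_of_nonneg_right hdom (v.nonneg _)
  rw [Finset.sum_mul] at h2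
  have h3 : ∑ i ∈ s.erase i0, (v (a i) * v (u i0) - v (a i) * v (u i)) ≤ 0 := by
    rw [Finset.sum_sub_distrib]; linarith
  have h4 : ∀ i ∈ s.erase i0, 0 ≤ (v (a i) * v (u i0) - v (a i) * v (u i)) := by
    intro i hi
    have := mul_le_mul_of_nonneg_left (hmax i (Finset.mem_of_mem_erase hi)) (v.nonneg (a i))
    linarith
  have h5 := (Finset.sum_eq_zero_iff_of_nonneg h4).mp (le_antisymm h3 (Finset.sum_nonneg h4))
  intro i hi hai
  have h6 := h5 i hi
  have hpos : 0 < v (a i) := v.pos hai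
  have : v (a i) * (v (u i0) - v (u i)) = 0 := by
    rw [mul_sub]; exact h6
  rcases mul_eq_zero.mp this with h7 | h7
  · exact absurd h7 hpos.ne'
  · linarith

omit [Group G] in
theorem exists_max_abv (v : AbsoluteValue K ℝ) {f : G → K}
    (hf : Filter.Tendsto (fun h => v (f h)) Filter.cofinite (nhds 0)) (hne : f ≠ 0) :
    ∃ b, f b ≠ 0 ∧ (∀ h, v (f h) ≤ v (f b)) ∧ {h | v (f h) = v (f b)}.Finite := by
  obtain ⟨h1, hh1⟩ : ∃ h1, f h1 ≠ 0 := by
    by_contra hcon
    push Not at hcon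
    exact hne (funext hcon)
  have hpos : 0 < v (f h1) := v.pos hh1
  have hev : ∀ᶠ h in Filter.cofinite, v (f h) < v (f h1) :=
    hf.eventually (gt_mem_nhds hpos)
  have hfin : {h | ¬ v (f h) < v (f h1)}.Finite := Filter.eventually_cofinite.mp hev
  have hmem : h1 ∈ hfin.toFinset := by simp
  obtain ⟨b, hb, hmax⟩ := Finset.exists_max_image hfin.toFinset (fun h => v (f h)) ⟨h1, hmem⟩
  have hb1 : v (f h1) ≤ v (f b) := hmax h1 hmem
  refine ⟨b, ?_, fun h => ?_, ?_⟩
  · intro h0
    rw [h0, map_zero] at hb1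
    linarith
  · by_cases hh : h ∈ hfin.toFinset
    · exact hmax h hh
    · simp only [Set.Finite.mem_toFinset, Set.mem_ofPred_eq, not_not] at hh
      linarith
  · apply hfin.subset
    intro h hh
    simp only [Set.mem_ofPred_eq] at hh ⊢
    rw [hh]; linarith

theorem dominant_coeff_ne_zero (v : AbsoluteValue K ℝ) {α : MonoidAlgebra K G} (hα : α ≠ 0) {g0 : G}
    (hdom : ∑ g ∈ α.coeff.support, v (α.coeff g) ≤ 2 * v (α.coeff g0)) : α.coeff g0 ≠ 0 := by
  intro h0
  rw [h0, map_zero, mul_zero] at hdom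
  have hz := (Finset.sum_eq_zero_iff_of_nonneg (fun g _ => v.nonneg (α.coeff g))).mp
    (le_antisymm hdom (Finset.sum_nonneg (fun g _ => v.nonneg (α.coeff g))))
  apply hα
  rw [← coeff_eq_zero]
  ext g
  by_cases hg : g ∈ α.coeff.support
  · exact (map_eq_zero v).mp (hz g hg)
  · exact Finsupp.notMem_support_iff.mp hg

theorem fun_eq_zero_of_dominant_left (hG : ∀ g : G, g ≠ 1 → ¬ IsOfFinOrder g)
    (v : AbsoluteValue K ℝ) {α : MonoidAlgebra K G} (hα : α ≠ 0) {g0 : G}
    (hdom : ∑ g ∈ α.coeff.support, v (α.coeff g) ≤ 2 * v (α.coeff g0)) {f : G → K}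
    (hf : Filter.Tendsto (fun h => v (f h)) Filter.cofinite (nhds 0))
    (h0 : ∀ h, ∑ g ∈ α.coeff.support, α.coeff g * f (g⁻¹ * h) = 0) : f = 0 := by
  classical
  by_contra hne
  obtain ⟨b, hb, hmax, hfin⟩ := exists_max_abv v hf hne
  have hg0 := dominant_coeff_ne_zero v hα hdom
  have hmem : g0 ∈ α.coeff.support := Finsupp.mem_support_iff.mpr hg0
  have hdom' : ∑ g ∈ α.coeff.support.erase g0, v (α.coeff g) ≤ v (α.coeff g0) := by
    rw [← Finset.add_sum_erase _ _ hmem] at hdom
    linarith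
  have step : ∀ b', v (f b') = v (f b) → ∀ g ∈ α.coeff.support.erase g0,
      v (f (g⁻¹ * (g0 * b'))) = v (f b) := by
    intro b' hb' g hg
    have := dom_core v α.coeff.support (fun g => α.coeff g) (fun g => f (g⁻¹ * (g0 * b'))) hmem
      (h0 (g0 * b')) hdom' (by intro i _; simp only [inv_mul_cancel_left]; rw [hb']; exact hmax _)
      g hg (Finsupp.mem_support_iff.mp (Finset.mem_of_mem_erase hg))
    simpa [hb'] using this
  rcases (α.coeff.support.erase g0).eq_empty_or_nonempty with hemp | ⟨g1, hg1⟩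
  · have := h0 (g0 * b)
    rw [← Finset.add_sum_erase _ _ hmem, hemp] at this
    simp only [inv_mul_cancel_left, Finset.sum_empty, add_zero, mul_eq_zero] at this
    rcases this with h | h
    · exact hg0 h
    · exact hb h
  · have hne1 : g0⁻¹ * g1 ≠ 1 := by
      intro h
      exact (Finset.mem_erase.mp hg1).1 (inv_mul_eq_one.mp h).symm
    apply not_one_mem_closure_subsingleton hG hne1 (S := {g0⁻¹ * g1}) subset_rfl
    apply one_mem_closure_of_finite_left hfin ⟨b, rfl⟩
    intro b' hb'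
    refine ⟨g0⁻¹ * g1, rfl, ?_⟩
    simp only [Set.mem_ofPred_eq, mul_inv_rev, inv_inv] at hb' ⊢
    rw [mul_assoc]
    exact step b' hb' g1 hg1

theorem fun_eq_zero_of_dominant_right (hG : ∀ g : G, g ≠ 1 → ¬ IsOfFinOrder g)
    (v : AbsoluteValue K ℝ) {α : MonoidAlgebra K G} (hα : α ≠ 0) {g0 : G}
    (hdom : ∑ g ∈ α.coeff.support, v (α.coeff g) ≤ 2 * v (α.coeff g0)) {f : G → K}
    (hf : Filter.Tendsto (fun h => v (f h)) Filter.cofinite (nhds 0))
    (h0 : ∀ h, ∑ g ∈ α.coeff.support, f (h * g⁻¹) * α.coeff g = 0) : f = 0 := by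
  classical
  by_contra hne
  obtain ⟨b, hb, hmax, hfin⟩ := exists_max_abv v hf hne
  have hg0 := dominant_coeff_ne_zero v hα hdom
  have hmem : g0 ∈ α.coeff.support := Finsupp.mem_support_iff.mpr hg0
  have hdom' : ∑ g ∈ α.coeff.support.erase g0, v (α.coeff g) ≤ v (α.coeff g0) := by
    rw [← Finset.add_sum_erase _ _ hmem] at hdom
    linarith
  have h0' : ∀ h, ∑ g ∈ α.coeff.support, α.coeff g * f (h * g⁻¹) = 0 := by
    intro h
    rw [← h0 h]
    exact Finset.sum_congr rfl (fun g _ => mul_comm _ _)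
  have step : ∀ b', v (f b') = v (f b) → ∀ g ∈ α.coeff.support.erase g0,
      v (f (b' * g0 * g⁻¹)) = v (f b) := by
    intro b' hb' g hg
    have := dom_core v α.coeff.support (fun g => α.coeff g) (fun g => f (b' * g0 * g⁻¹)) hmem
      (h0' (b' * g0)) hdom' (by intro i _; simp only [mul_inv_cancel_right]; rw [hb']; exact hmax _)
      g hg (Finsupp.mem_support_iff.mp (Finset.mem_of_mem_erase hg))
    simpa [hb'] using this
  rcases (α.coeff.support.erase g0).eq_empty_or_nonempty with hemp | ⟨g1, hg1⟩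
  · have := h0' (b * g0)
    rw [← Finset.add_sum_erase _ _ hmem, hemp] at this
    simp only [mul_inv_cancel_right, Finset.sum_empty, add_zero, mul_eq_zero] at this
    rcases this with h | h
    · exact hg0 h
    · exact hb h
  · have hne1 : g1 * g0⁻¹ ≠ 1 := by
      intro h
      exact (Finset.mem_erase.mp hg1).1 (mul_inv_eq_one.mp h)
    apply not_one_mem_closure_subsingleton hG hne1 (S := {g1 * g0⁻¹}) subset_rfl
    apply one_mem_closure_of_finite_right hfin ⟨b, rfl⟩
    intro b' hb'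
    refine ⟨g1 * g0⁻¹, rfl, ?_⟩
    simp only [Set.mem_ofPred_eq, mul_inv_rev, inv_inv] at hb' ⊢
    rw [← mul_assoc]
    exact step b' hb' g1 hg1

omit [Group G] in
theorem tendsto_abv_coeff (v : AbsoluteValue K ℝ) (β : MonoidAlgebra K G) :
    Filter.Tendsto (fun h => v (β.coeff h)) Filter.cofinite (nhds 0) := by
  apply tendsto_nhds_of_eventually_eq
  rw [Filter.eventually_cofinite]
  apply (Finset.finite_toSet β.coeff.support).subset
  intro h hh
  simp only [Set.mem_ofPred_eq] at hh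
  simp only [Finset.mem_coe, Finsupp.mem_support_iff]
  intro h0
  exact hh (by rw [h0, map_zero])

theorem regular_of_dominant (hG : ∀ g : G, g ≠ 1 → ¬ IsOfFinOrder g)
    (v : AbsoluteValue K ℝ) {α : MonoidAlgebra K G} (hα : α ≠ 0) {g0 : G}
    (hdom : ∑ g ∈ α.coeff.support, v (α.coeff g) ≤ 2 * v (α.coeff g0)) (β : MonoidAlgebra K G) :
    (α * β = 0 → β = 0) ∧ (β * α = 0 → β = 0) := by
  constructor
  · intro h0
    have := fun_eq_zero_of_dominant_left hG v hα hdom (tendsto_abv_coeff v β) (fun h => by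
      rw [← coeff_mul_left_sum, h0]; rfl)
    rw [← coeff_eq_zero]
    ext g
    exact congrFun this g
  · intro h0
    have := fun_eq_zero_of_dominant_right hG v hα hdom (tendsto_abv_coeff v β) (fun h => by
      rw [← coeff_mul_right_sum, h0]; rfl)
    rw [← coeff_eq_zero]
    ext g
    exact congrFun this g

end Vale.Agent.P201
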