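import Vale.Agent.P201.Basic

namespace Vale.Agent.P201

open MonoidAlgebra

variable {K : Type*} [Field K] {G : Type*} [Group G]

open Classical in
/-- the part of `α` supported on the fibre of `π` over `c` -/
noncomputable def fiberPart {Q : Type*} (π : G → Q) (c : Q) (α : MonoidAlgebra K G) :
    MonoidAlgebra K G :=
  MonoidAlgebra.ofCoeff (α.coeff.filter (fun g => π g = c))

omit [Group G] in
open Classical in
theorem fiberPart_coeff {Q : Type*} (π : G → Q) (c : Q) (α : MonoidAlgebra K G) (g : G) :
    (fiberPart π c α).coeff g = if π g = c then α.coeff g else 0 := by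
  simp only [fiberPart, coeff_ofCoeff, Finsupp.filter_apply]

omit [Group G] in
theorem fiberPart_support_subset {Q : Type*} (π : G → Q) (c : Q) (α : MonoidAlgebra K G) :
    (fiberPart π c α).coeff.support ⊆ α.coeff.support := by
  intro g hg
  rw [Finsupp.mem_support_iff, fiberPart_coeff] at hg
  rw [Finsupp.mem_support_iff]
  intro h0
  rw [h0] at hg
  simp at hg

theorem coeff_mul_left_sum_of_subset (α β : MonoidAlgebra K G) (h : G) {s : Finset G}
    (hs : α.coeff.support ⊆ s) :
    (α * β).coeff h = ∑ g ∈ s, α.coeff g * β.coeff (g⁻¹ * h) := by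
  rw [coeff_mul_left_sum]
  apply Finset.sum_subset hs
  intro g _ hg
  rw [Finsupp.notMem_support_iff.mp hg, zero_mul]

theorem exists_fiber_zero_divisors {Q : Type*} [Group Q] [UniqueProds Q] (π : G →* Q)
    {α β : MonoidAlgebra K G} (hα : α ≠ 0) (hβ : β ≠ 0) (h0 : α * β = 0) :
    ∃ c d : Q, fiberPart π c α ≠ 0 ∧ fiberPart π d β ≠ 0 ∧ fiberPart π c α * fiberPart π d β = 0 := by
  classical
  have hα' : α.coeff.support.Nonempty := by
    rw [Finsupp.support_nonempty_iff]; simpa using hα
  have hβ' : β.coeff.support.Nonempty := by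
    rw [Finsupp.support_nonempty_iff]; simpa using hβ
  obtain ⟨c, hc, d, hd, huniq⟩ := UniqueProds.uniqueMul_of_nonempty
    (hα'.image π) (hβ'.image π)
  refine ⟨c, d, ?_, ?_, ?_⟩
  · obtain ⟨g, hg, rfl⟩ := Finset.mem_image.mp hc
    intro h
    have := congrArg (fun x => x.coeff g) h
    simp only [fiberPart_coeff, if_true, coeff_zero, Finsupp.coe_zero, Pi.zero_apply] at this
    exact Finsupp.mem_support_iff.mp hg this
  · obtain ⟨g, hg, rfl⟩ := Finset.mem_image.mp hd
    intro h
    have := congrArg (fun x => x.coeff g) h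
    simp only [fiberPart_coeff, if_true, coeff_zero, Finsupp.coe_zero, Pi.zero_apply] at this
    exact Finsupp.mem_support_iff.mp hg this
  · rw [← coeff_eq_zero]
    ext h
    rw [coeff_mul_left_sum_of_subset _ _ h (fiberPart_support_subset π c α)]
    simp only [fiberPart_coeff, Finsupp.coe_zero, Pi.zero_apply]
    by_cases hh : π h = c * d
    · have key := coeff_mul_left_sum α β h
      rw [h0] at key
      simp only [coeff_zero, Finsupp.coe_zero, Pi.zero_apply] at key
      refine Eq.trans ?_ key.symm
      apply Finset.sum_congr rfl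
      intro g hg
      by_cases hb : β.coeff (g⁻¹ * h) = 0
      · rw [hb]; simp
      · have h1 : π g ∈ α.coeff.support.image π := Finset.mem_image_of_mem π hg
        have h2 : π (g⁻¹ * h) ∈ β.coeff.support.image π :=
          Finset.mem_image_of_mem π (Finsupp.mem_support_iff.mpr hb)
        have h3 : π g * π (g⁻¹ * h) = c * d := by
          rw [← map_mul, mul_inv_cancel_left, hh]
        obtain ⟨e1, e2⟩ := huniq h1 h2 h3
        rw [if_pos e1, if_pos e2]
    · apply Finset.sum_eq_zero
      intro g _
      by_cases e1 : π g = c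
      · by_cases e2 : π (g⁻¹ * h) = d
        · exfalso
          apply hh
          rw [← e1, ← e2, ← map_mul, mul_inv_cancel_left]
        · rw [if_neg e2, mul_zero]
      · rw [if_neg e1, zero_mul]

end Vale.Agent.P201
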