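import Vale.Agent.P201.Basic

namespace Vale.Agent.P201

open MonoidAlgebra

theorem int_isJacobsonRing : IsJacobsonRing ℤ := by
  rw [isJacobsonRing_iff_prime_eq]
  intro P hP
  by_cases hbot : P = ⊥
  · subst hbot
    rw [eq_bot_iff]
    intro x hx
    rw [Ideal.mem_jacobson_bot] at hx
    have h := hx (2 * x)
    rw [Int.isUnit_iff] at h
    rw [Ideal.mem_bot]
    rcases h with h | h
    · nlinarith [sq_nonneg x]
    · nlinarith [sq_nonneg x]
  · have : P.IsMaximal := hP.isMaximal hbot
    exact Ideal.jacobson_eq_self_of_isMaximal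

theorem finite_of_field_finiteType_int (F : Type*) [Field F] [Algebra ℤ F]
    [Algebra.FiniteType ℤ F] : Finite F := by
  have := int_isJacobsonRing
  have hfin := finite_of_finite_type_of_isJacobsonRing ℤ F
  have hint : Algebra.IsIntegral ℤ F := Algebra.IsIntegral.of_finite ℤ F
  have hninj : ¬ Function.Injective (algebraMap ℤ F) := fun hinj =>
    Int.not_isField (isField_of_isIntegral_of_isField hinj (Field.toIsField F))
  obtain ⟨n, hn0, hn⟩ : ∃ n : ℤ, n ≠ 0 ∧ algebraMap ℤ F n = 0 := by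
    rw [injective_iff_map_eq_zero] at hninj
    push Not at hninj
    obtain ⟨n, h1, h2⟩ := hninj
    exact ⟨n, h2, h1⟩
  apply @Module.finite_of_fg_torsion F _ Algebra.toModule hfin
  intro x
  refine ⟨⟨n, mem_nonZeroDivisors_of_ne_zero hn0⟩, ?_⟩
  exact (Algebra.smul_def n x).trans (by rw [hn, zero_mul])

variable {K : Type*} [Field K] {G : Type*} [Group G]

theorem exists_finite_field_zero_divisors {α β : MonoidAlgebra K G} (hα : α ≠ 0) (hβ : β ≠ 0)
    (h0 : α * β = 0) :
    ∃ (p n : ℕ) (_ : Fact p.Prime), n ≠ 0 ∧ ∃ α' β' : MonoidAlgebra (GaloisField p n) G,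
      α' ≠ 0 ∧ β' ≠ 0 ∧ α' * β' = 0 := by
  classical
  obtain ⟨g0, hg0⟩ : ∃ g, α.coeff g ≠ 0 := by
    by_contra hcon
    push Not at hcon
    exact hα (by rw [← coeff_eq_zero]; ext g; exact hcon g)
  obtain ⟨k0, hk0⟩ : ∃ g, β.coeff g ≠ 0 := by
    by_contra hcon
    push Not at hcon
    exact hβ (by rw [← coeff_eq_zero]; ext g; exact hcon g)
  let S : Finset K := α.coeff.support.image α.coeff ∪ β.coeff.support.image β.coeff ∪
    {(α.coeff g0)⁻¹, (β.coeff k0)⁻¹}
  let R : Subalgebra ℤ K := Algebra.adjoin ℤ (S : Set K)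
  have hFT : Algebra.FiniteType ℤ R := Algebra.FiniteType.adjoin_of_finite S.finite_toSet
  have hαR : ∀ g, α.coeff g ∈ R := by
    intro g
    by_cases hg : g ∈ α.coeff.support
    · apply Algebra.subset_adjoin
      simp only [S, Finset.coe_union, Set.mem_union, Finset.mem_coe]
      exact Or.inl (Or.inl (Finset.mem_image_of_mem _ hg))
    · rw [Finsupp.notMem_support_iff.mp hg]; exact R.zero_mem
  have hβR : ∀ g, β.coeff g ∈ R := by
    intro g
    by_cases hg : g ∈ β.coeff.support
    · apply Algebra.subset_adjoin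
      simp only [S, Finset.coe_union, Set.mem_union, Finset.mem_coe]
      exact Or.inl (Or.inr (Finset.mem_image_of_mem _ hg))
    · rw [Finsupp.notMem_support_iff.mp hg]; exact R.zero_mem
  have ha' : (α.coeff g0)⁻¹ ∈ R := by
    apply Algebra.subset_adjoin
    simp [S]
  have hb' : (β.coeff k0)⁻¹ ∈ R := by
    apply Algebra.subset_adjoin
    simp [S]
  let ι : R →+* K := R.val.toRingHom
  have hιinj : Function.Injective ι := Subtype.val_injective
  obtain ⟨αR, hαR'⟩ : ∃ αR : MonoidAlgebra R G, MonoidAlgebra.map (ι : R →+ K) αR = α := by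
    have : α ∈ Set.range (MonoidAlgebra.map (M := G) (ι : R →+ K)) := by
      rw [range_map]
      intro g
      exact ⟨⟨α.coeff g, hαR g⟩, rfl⟩
    exact this
  obtain ⟨βR, hβR'⟩ : ∃ βR : MonoidAlgebra R G, MonoidAlgebra.map (ι : R →+ K) βR = β := by
    have : β ∈ Set.range (MonoidAlgebra.map (M := G) (ι : R →+ K)) := by
      rw [range_map]
      intro g
      exact ⟨⟨β.coeff g, hβR g⟩, rfl⟩
    exact this
  have hprodR : αR * βR = 0 := by
    apply map_injective (ι : R →+ K) hιinj
    have := MonoidAlgebra.map_mul ι αR βR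
    rw [MonoidAlgebra.map_zero]
    rw [← h0, ← hαR', ← hβR']
    exact this
  obtain ⟨m, hm⟩ := Ideal.exists_maximal R
  let _ : Field (R ⧸ m) := Ideal.Quotient.field m
  have hFT' : Algebra.FiniteType ℤ (R ⧸ m) :=
    Algebra.FiniteType.of_surjective (Ideal.Quotient.mkₐ ℤ m) (Ideal.Quotient.mkₐ_surjective ℤ m)
  have hfin : Finite (R ⧸ m) := finite_of_field_finiteType_int (R ⧸ m)
  have : Fintype (R ⧸ m) := Fintype.ofFinite _
  obtain ⟨p, hchar, n, hp, hcard⟩ := FiniteField.card' (R ⧸ m)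
  have hpF : Fact p.Prime := ⟨hp⟩
  let _ : Algebra (ZMod p) (R ⧸ m) := ZMod.algebra _ p
  let e : (R ⧸ m) ≃+* GaloisField p n :=
    (GaloisField.algEquivGaloisFieldOfFintype p n hcard).toRingEquiv
  let φ : R →+* GaloisField p n := (e : (R ⧸ m) →+* GaloisField p n).comp (Ideal.Quotient.mk m)
  have hunit : ∀ (x y : R), x * y = 1 → φ x ≠ 0 := by
    intro x y hxy hx
    have := congrArg φ hxy
    rw [map_mul, hx, zero_mul, map_one] at this
    exact zero_ne_one this
  refine ⟨p, n, hpF, n.ne_zero, MonoidAlgebra.map (φ : R →+ GaloisField p n) αR,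
    MonoidAlgebra.map (φ : R →+ GaloisField p n) βR, ?_, ?_, ?_⟩
  · intro h
    have h1 := congrArg (fun x => x.coeff g0) h
    simp only [coeff_map, Finsupp.mapRange_apply, coeff_zero, Finsupp.coe_zero, Pi.zero_apply] at h1
    have h2 : ι (αR.coeff g0) = α.coeff g0 := by
      rw [← hαR']; simp [coeff_map]
    refine hunit (αR.coeff g0) ⟨_, ha'⟩ ?_ h1
    apply hιinj
    rw [map_mul, h2, map_one]
    exact mul_inv_cancel₀ hg0
  · intro h
    have h1 := congrArg (fun x => x.coeff k0) h
    simp only [coeff_map, Finsupp.mapRange_apply, coeff_zero, Finsupp.coe_zero, Pi.zero_apply] at h1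
    have h2 : ι (βR.coeff k0) = β.coeff k0 := by
      rw [← hβR']; simp [coeff_map]
    refine hunit (βR.coeff k0) ⟨_, hb'⟩ ?_ h1
    apply hιinj
    rw [map_mul, h2, map_one]
    exact mul_inv_cancel₀ hk0
  · have := MonoidAlgebra.map_mul φ αR βR
    rw [hprodR] at this
    rw [← this]
    exact MonoidAlgebra.map_zero _

end Vale.Agent.P201
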