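import Vale.Agent.P201.Fiber

namespace Vale.Agent.P201

open MonoidAlgebra

variable {K : Type*} [Field K] {G : Type*} [Group G]

theorem exists_coeff_ne_zero {α : MonoidAlgebra K G} (hα : α ≠ 0) : ∃ g, α.coeff g ≠ 0 := by
  by_contra hcon
  push Not at hcon
  apply hα
  rw [← coeff_eq_zero]
  ext g
  exact hcon g

theorem card_support_mapDomain_subtype (H : Subgroup G) (x : MonoidAlgebra K H) :
    (mapDomain H.subtype x).coeff.support.card = x.coeff.support.card := by
  classical
  change (Finsupp.mapDomain H.subtype x.coeff).support.card = _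
  rw [Finsupp.mapDomain_support_of_injective H.subtype_injective,
    Finset.card_image_of_injective _ H.subtype_injective]

theorem exists_fg_subgroup_of_zero_divisors {α β : MonoidAlgebra K G} (hα : α ≠ 0) (hβ : β ≠ 0)
    (h0 : α * β = 0) :
    ∃ H : Subgroup G, H.FG ∧ (∃ α' β' : MonoidAlgebra K H, α' ≠ 0 ∧ β' ≠ 0 ∧ α' * β' = 0) ∧
      ∀ (N : Subgroup H) [N.Normal], UniqueProds (H ⧸ N) → N = ⊤ := by
  classical
  let P : ℕ → Prop := fun n => ∃ α β : MonoidAlgebra K G, α ≠ 0 ∧ β ≠ 0 ∧ α * β = 0 ∧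
    α.coeff.support.card + β.coeff.support.card = n
  have hP : ∃ n, P n := ⟨_, α, β, hα, hβ, h0, rfl⟩
  obtain ⟨α₁, β₁, hα₁, hβ₁, h₁, hn⟩ := Nat.find_spec hP
  have hmin : ∀ α' β' : MonoidAlgebra K G, α' ≠ 0 → β' ≠ 0 → α' * β' = 0 →
      α₁.coeff.support.card + β₁.coeff.support.card
        ≤ α'.coeff.support.card + β'.coeff.support.card := by
    intro α' β' h1 h2 h3
    rw [hn]
    exact Nat.find_min' hP ⟨α', β', h1, h2, h3, rfl⟩
  obtain ⟨g, hg⟩ := exists_coeff_ne_zero hα₁
  obtain ⟨h, hh⟩ := exists_coeff_ne_zero hβ₁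
  obtain ⟨α₂, hα₂⟩ : ∃ α₂, α₂ = single g⁻¹ (1 : K) * α₁ := ⟨_, rfl⟩
  obtain ⟨β₂, hβ₂⟩ : ∃ β₂, β₂ = β₁ * single h⁻¹ (1 : K) := ⟨_, rfl⟩
  have hα₂1 : α₂.coeff 1 ≠ 0 := by rw [hα₂]; simpa using hg
  have hβ₂1 : β₂.coeff 1 ≠ 0 := by rw [hβ₂]; simpa using hh
  have h₂ : α₂ * β₂ = 0 := by
    rw [hα₂, hβ₂, mul_assoc, ← mul_assoc α₁, h₁, zero_mul, mul_zero]
  have hcα : α₂.coeff.support.card = α₁.coeff.support.card := by
    rw [hα₂, support_coeff_single_mul _ _ (by simp)]; exact Finset.card_map _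
  have hcβ : β₂.coeff.support.card = β₁.coeff.support.card := by
    rw [hβ₂, support_coeff_mul_single _ _ (by simp)]; exact Finset.card_map _
  let H : Subgroup G := Subgroup.closure ((α₂.coeff.support ∪ β₂.coeff.support : Finset G) : Set G)
  have hFG : H.FG := ⟨_, rfl⟩
  have hαsub : (α₂.coeff.support : Set G) ⊆ Set.range H.subtype := by
    intro x hx
    exact ⟨⟨x, Subgroup.subset_closure (by
      simp only [Finset.coe_union, Set.mem_union]; exact Or.inl hx)⟩, rfl⟩
  have hβsub : (β₂.coeff.support : Set G) ⊆ Set.range H.subtype := by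
    intro x hx
    exact ⟨⟨x, Subgroup.subset_closure (by
      simp only [Finset.coe_union, Set.mem_union]; exact Or.inr hx)⟩, rfl⟩
  obtain ⟨αH, hαH⟩ : ∃ αH : MonoidAlgebra K H, mapDomain H.subtype αH = α₂ :=
    ⟨_, mapDomain_comapDomain hαsub H.subtype_injective⟩
  obtain ⟨βH, hβH⟩ : ∃ βH : MonoidAlgebra K H, mapDomain H.subtype βH = β₂ :=
    ⟨_, mapDomain_comapDomain hβsub H.subtype_injective⟩
  have hinj : Function.Injective (mapDomain (R := K) H.subtype) :=
    mapDomain_injective H.subtype_injective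
  have hαH0 : αH ≠ 0 := by
    rintro rfl
    rw [mapDomain_zero] at hαH
    rw [← hαH] at hα₂1
    simp at hα₂1
  have hβH0 : βH ≠ 0 := by
    rintro rfl
    rw [mapDomain_zero] at hβH
    rw [← hβH] at hβ₂1
    simp at hβ₂1
  have hprod : αH * βH = 0 := by
    apply hinj
    rw [mapDomain_mul, hαH, hβH, h₂, mapDomain_zero]
  have coeffα : ∀ x : H, αH.coeff x = α₂.coeff x := by
    intro x
    rw [← hαH]
    exact (Finsupp.mapDomain_apply H.subtype_injective αH.coeff x).symm
  have coeffβ : ∀ x : H, βH.coeff x = β₂.coeff x := by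
    intro x
    rw [← hβH]
    exact (Finsupp.mapDomain_apply H.subtype_injective βH.coeff x).symm
  refine ⟨H, hFG, ⟨αH, βH, hαH0, hβH0, hprod⟩, ?_⟩
  intro N hN hUP
  have := hUP
  obtain ⟨c, d, hc, hd, hcd⟩ := exists_fiber_zero_divisors (QuotientGroup.mk' N) hαH0 hβH0 hprod
  have hle := hmin (mapDomain H.subtype (fiberPart (QuotientGroup.mk' N) c αH))
    (mapDomain H.subtype (fiberPart (QuotientGroup.mk' N) d βH))
    (fun h => hc (hinj (by rw [h, mapDomain_zero])))
    (fun h => hd (hinj (by rw [h, mapDomain_zero])))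
    (by rw [← mapDomain_mul, hcd, mapDomain_zero])
  rw [card_support_mapDomain_subtype, card_support_mapDomain_subtype, ← hcα, ← hcβ, ← hαH, ← hβH,
    card_support_mapDomain_subtype, card_support_mapDomain_subtype] at hle
  have s1 := fiberPart_support_subset (QuotientGroup.mk' N) c αH
  have s2 := fiberPart_support_subset (QuotientGroup.mk' N) d βH
  have c1 := Finset.card_le_card s1
  have c2 := Finset.card_le_card s2
  have e1 := Finset.eq_of_subset_of_card_le s1 (by omega)
  have e2 := Finset.eq_of_subset_of_card_le s2 (by omega)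
  have memα : ∀ x : H, αH.coeff x ≠ 0 → QuotientGroup.mk' N x = c := by
    intro x hx
    have : x ∈ (fiberPart (QuotientGroup.mk' N) c αH).coeff.support := by
      rw [e1]; exact Finsupp.mem_support_iff.mpr hx
    rw [Finsupp.mem_support_iff, fiberPart_coeff] at this
    by_contra hne
    rw [if_neg hne] at this
    exact this rfl
  have memβ : ∀ x : H, βH.coeff x ≠ 0 → QuotientGroup.mk' N x = d := by
    intro x hx
    have : x ∈ (fiberPart (QuotientGroup.mk' N) d βH).coeff.support := by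
      rw [e2]; exact Finsupp.mem_support_iff.mpr hx
    rw [Finsupp.mem_support_iff, fiberPart_coeff] at this
    by_contra hne
    rw [if_neg hne] at this
    exact this rfl
  have hc1 : c = 1 := by
    rw [← memα 1 (by rw [coeffα]; exact hα₂1), map_one]
  have hd1 : d = 1 := by
    rw [← memβ 1 (by rw [coeffβ]; exact hβ₂1), map_one]
  have hsubN : H ≤ N.map H.subtype := by
    apply (Subgroup.closure_le _).mpr
    intro x hx
    simp only [Finset.coe_union, Set.mem_union, Finset.mem_coe, Finsupp.mem_support_iff] at hx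
    have hxH : x ∈ H := Subgroup.subset_closure (by
      simp only [Finset.coe_union, Set.mem_union, Finset.mem_coe, Finsupp.mem_support_iff]
      exact hx)
    refine ⟨⟨x, hxH⟩, ?_, rfl⟩
    rcases hx with hx | hx
    · have := memα ⟨x, hxH⟩ (by rw [coeffα]; exact hx)
      rw [hc1] at this
      exact (QuotientGroup.eq_one_iff _).mp this
    · have := memβ ⟨x, hxH⟩ (by rw [coeffβ]; exact hx)
      rw [hd1] at this
      exact (QuotientGroup.eq_one_iff _).mp this
  rw [eq_top_iff]
  intro x _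
  obtain ⟨y, hy, hyx⟩ := hsubN x.2
  have : y = x := Subtype.ext hyx
  exact this ▸ hy

end Vale.Agent.P201
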