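import Vale.Agent.P201.Basic
import Vale.Agent.P201.Fiber

namespace Vale.Agent.P201

open MonoidAlgebra

variable {K : Type*} [Field K] {G : Type*} [Group G]

open Classical in
noncomputable def restrictTo (H : Subgroup G) (γ : MonoidAlgebra K G) : MonoidAlgebra K G :=
  MonoidAlgebra.ofCoeff (γ.coeff.filter (fun g => g ∈ H))

open Classical in
theorem restrictTo_coeff (H : Subgroup G) (γ : MonoidAlgebra K G) (g : G) :
    (restrictTo H γ).coeff g = if g ∈ H then γ.coeff g else 0 := by
  simp only [restrictTo, coeff_ofCoeff, Finsupp.filter_apply]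

theorem mul_restrictTo_eq_zero (H : Subgroup G) {α γ : MonoidAlgebra K G}
    (hαH : ∀ g, α.coeff g ≠ 0 → g ∈ H) (h0 : α * γ = 0) : α * restrictTo H γ = 0 := by
  classical
  rw [← coeff_eq_zero]
  ext h
  rw [coeff_mul_left_sum]
  simp only [restrictTo_coeff, Finsupp.coe_zero, Pi.zero_apply]
  by_cases hh : h ∈ H
  · have key := coeff_mul_left_sum α γ h
    rw [h0] at key
    simp only [coeff_zero, Finsupp.coe_zero, Pi.zero_apply] at key
    refine Eq.trans ?_ key.symm
    apply Finset.sum_congr rfl
    intro g hg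
    have hgH := hαH g (Finsupp.mem_support_iff.mp hg)
    rw [if_pos (H.mul_mem (H.inv_mem hgH) hh)]
  · apply Finset.sum_eq_zero
    intro g hg
    have hgH := hαH g (Finsupp.mem_support_iff.mp hg)
    rw [if_neg, mul_zero]
    intro hcon
    apply hh
    have := H.mul_mem hgH hcon
    simpa using this

theorem restrictTo_mul_eq_zero (H : Subgroup G) {α γ : MonoidAlgebra K G}
    (hαH : ∀ g, α.coeff g ≠ 0 → g ∈ H) (h0 : γ * α = 0) : restrictTo H γ * α = 0 := by
  classical
  rw [← coeff_eq_zero]
  ext h
  rw [coeff_mul_right_sum]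
  simp only [restrictTo_coeff, Finsupp.coe_zero, Pi.zero_apply]
  by_cases hh : h ∈ H
  · have key := coeff_mul_right_sum γ α h
    rw [h0] at key
    simp only [coeff_zero, Finsupp.coe_zero, Pi.zero_apply] at key
    refine Eq.trans ?_ key.symm
    apply Finset.sum_congr rfl
    intro g hg
    have hgH := hαH g (Finsupp.mem_support_iff.mp hg)
    rw [if_pos (H.mul_mem hh (H.inv_mem hgH))]
  · apply Finset.sum_eq_zero
    intro g hg
    have hgH := hαH g (Finsupp.mem_support_iff.mp hg)
    rw [if_neg, zero_mul]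
    intro hcon
    apply hh
    have := H.mul_mem hcon hgH
    simpa using this

theorem exists_lift_subgroup (H : Subgroup G) {α : MonoidAlgebra K G}
    (hαH : ∀ g, α.coeff g ≠ 0 → g ∈ H) :
    ∃ αH : MonoidAlgebra K H, mapDomain H.subtype αH = α := by
  refine ⟨_, mapDomain_comapDomain ?_ H.subtype_injective⟩
  intro x hx
  exact ⟨⟨x, hαH x (Finsupp.mem_support_iff.mp hx)⟩, rfl⟩

theorem descend_to_subgroup (H : Subgroup G) {α β : MonoidAlgebra K G}
    (hαH : ∀ g, α.coeff g ≠ 0 → g ∈ H) (hβ : β ≠ 0) (h0 : α * β = 0 ∨ β * α = 0) :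
    ∃ αH βH : MonoidAlgebra K H, mapDomain H.subtype αH = α ∧ βH ≠ 0 ∧
      (αH * βH = 0 ∨ βH * αH = 0) := by
  classical
  obtain ⟨b0, hb0⟩ : ∃ g, β.coeff g ≠ 0 := by
    by_contra hcon
    push Not at hcon
    exact hβ (by rw [← coeff_eq_zero]; ext g; exact hcon g)
  obtain ⟨αH, hαH'⟩ := exists_lift_subgroup H hαH
  have hinj : Function.Injective (mapDomain (R := K) H.subtype) :=
    mapDomain_injective H.subtype_injective
  rcases h0 with h0 | h0
  · have h1 : α * (β * single b0⁻¹ (1 : K)) = 0 := by rw [← mul_assoc, h0, zero_mul]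
    have h2 := mul_restrictTo_eq_zero H hαH h1
    obtain ⟨βH, hβH⟩ := exists_lift_subgroup H (α := restrictTo H (β * single b0⁻¹ (1 : K))) (by
      intro g hg
      rw [restrictTo_coeff] at hg
      by_contra hcon
      rw [if_neg hcon] at hg
      exact hg rfl)
    refine ⟨αH, βH, hαH', ?_, Or.inl ?_⟩
    · rintro rfl
      rw [mapDomain_zero] at hβH
      have := congrArg (fun z => z.coeff 1) hβH
      simp only [restrictTo_coeff, H.one_mem, if_true, coeff_zero, Finsupp.coe_zero,
        Pi.zero_apply, coeff_mul_single_apply, inv_inv, one_mul, mul_one] at this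
      exact hb0 this.symm
    · apply hinj
      rw [mapDomain_mul, hαH', hβH, h2, mapDomain_zero]
  · have h1 : (single b0⁻¹ (1 : K) * β) * α = 0 := by rw [mul_assoc, h0, mul_zero]
    have h2 := restrictTo_mul_eq_zero H hαH h1
    obtain ⟨βH, hβH⟩ := exists_lift_subgroup H (α := restrictTo H (single b0⁻¹ (1 : K) * β)) (by
      intro g hg
      rw [restrictTo_coeff] at hg
      by_contra hcon
      rw [if_neg hcon] at hg
      exact hg rfl)
    refine ⟨αH, βH, hαH', ?_, Or.inr ?_⟩
    · rintro rfl
      rw [mapDomain_zero] at hβH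
      have := congrArg (fun z => z.coeff 1) hβH
      simp only [restrictTo_coeff, H.one_mem, if_true, coeff_zero, Finsupp.coe_zero,
        Pi.zero_apply, coeff_single_mul_apply, inv_inv, one_mul, mul_one] at this
      exact hb0 this.symm
    · apply hinj
      rw [mapDomain_mul, hαH', hβH, h2, mapDomain_zero]

end Vale.Agent.P201
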