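import Mathlib

namespace Vale.Agent.P201

theorem exists_pow_eq_one_of_isIntegral_charP {K : Type*} [Field K] (p : ℕ) [CharP K p]
    (hp : p ≠ 0) {x : K} (hx0 : x ≠ 0) (hx : IsIntegral ℤ x) : ∃ n : ℕ, 0 < n ∧ x ^ n = 1 := by
  have hfg : (Algebra.adjoin ℤ {x}).toSubmodule.FG := hx.fg_adjoin_singleton
  have hfin : Module.Finite ℤ (Algebra.adjoin ℤ {x}) := Module.Finite.iff_fg.mpr hfg
  have hF : Finite (Algebra.adjoin ℤ {x}) := by
    apply Module.finite_of_fg_torsion
    intro z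
    refine ⟨⟨(p : ℤ), mem_nonZeroDivisors_of_ne_zero (by exact_mod_cast hp)⟩, ?_⟩
    ext
    simp [Submonoid.smul_def]
  let f : ℕ → Algebra.adjoin ℤ {x} := fun n => ⟨x, Algebra.self_mem_adjoin_singleton ℤ x⟩ ^ n
  obtain ⟨i, j, hij, hf⟩ := Finite.exists_ne_map_eq_of_infinite f
  have hpow : x ^ i = x ^ j := by
    have := congrArg Subtype.val hf
    simpa [f] using this
  rcases lt_or_gt_of_ne hij with h | h
  · refine ⟨j - i, by omega, ?_⟩
    have : x ^ i * x ^ (j - i) = x ^ i * 1 := by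
      rw [← pow_add, mul_one, Nat.add_sub_cancel' h.le, hpow]
    exact mul_left_cancel₀ (pow_ne_zero i hx0) this
  · refine ⟨i - j, by omega, ?_⟩
    have : x ^ j * x ^ (i - j) = x ^ j * 1 := by
      rw [← pow_add, mul_one, Nat.add_sub_cancel' h.le, hpow]
    exact mul_left_cancel₀ (pow_ne_zero j hx0) this

end Vale.Agent.P201
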