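import Vale.Agent.P201.Basic
import Vale.Agent.P201.Dominance
import Vale.Agent.P201.Fiber

namespace Vale.Agent.P201

open MonoidAlgebra

variable {K : Type*} [Field K] {G : Type*} [Group G]



theorem one_mem_closure_of_annihilates {Γ₀ : Type*} [LinearOrderedCommGroupWithZero Γ₀]
    (v : Valuation K Γ₀) {α β : MonoidAlgebra K G} (h0 : α * β = 0 ∨ β * α = 0) (hβ : β ≠ 0) {g0 : G}
    (hg0 : α.coeff g0 ≠ 0) (hmaxα : ∀ g, v (α.coeff g) ≤ v (α.coeff g0)) :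
    (1 : G) ∈ Subsemigroup.closure
      {s | ∃ g, g ≠ g0 ∧ v (α.coeff g) = v (α.coeff g0) ∧ s = g0⁻¹ * g} := by
  rcases h0 with h0 | h0
  · exact one_mem_closure_of_mul_eq_zero_left v h0 hβ hg0 hmaxα
  · exact one_mem_closure_of_mul_eq_zero_right v h0 hβ hg0 hmaxα

theorem exists_two_other_maximizers (hG : ∀ g : G, g ≠ 1 → ¬ IsOfFinOrder g)
    {Γ₀ : Type*} [LinearOrderedCommGroupWithZero Γ₀]
    (v : Valuation K Γ₀) {α β : MonoidAlgebra K G} (h0 : α * β = 0 ∨ β * α = 0) (hβ : β ≠ 0) {g0 : G}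
    (hg0 : α.coeff g0 ≠ 0) (hmaxα : ∀ g, v (α.coeff g) ≤ v (α.coeff g0)) :
    ∃ g g', g ≠ g0 ∧ g' ≠ g0 ∧ g ≠ g' ∧ v (α.coeff g) = v (α.coeff g0) ∧
      v (α.coeff g') = v (α.coeff g0) := by
  have h1 := one_mem_closure_of_annihilates v h0 hβ hg0 hmaxα
  by_contra hcon
  push Not at hcon
  rcases Set.eq_empty_or_nonempty
    {s | ∃ g, g ≠ g0 ∧ v (α.coeff g) = v (α.coeff g0) ∧ s = g0⁻¹ * g} with hemp | ⟨s, g, hg, hgv, rfl⟩
  · rw [hemp, Subsemigroup.closure_empty] at h1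
    exact (Subsemigroup.notMem_bot) h1
  · refine not_one_mem_closure_subsingleton hG (t := g0⁻¹ * g) ?_ ?_ h1
    · intro h
      exact hg (inv_mul_eq_one.mp h).symm
    · rintro s' ⟨g', hg', hgv', rfl⟩
      by_contra hne
      have hgg' : g ≠ g' := by
        rintro rfl
        exact hne rfl
      exact hcon g g' hg hg' hgg' hgv hgv'

theorem regular_of_support_subset_pair (hG : ∀ g : G, g ≠ 1 → ¬ IsOfFinOrder g)
    {α : MonoidAlgebra K G} (hα : α ≠ 0) {g₁ g₂ : G}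
    (hsupp : ∀ g, α.coeff g ≠ 0 → g = g₁ ∨ g = g₂) {β : MonoidAlgebra K G}
    (h0 : α * β = 0 ∨ β * α = 0) : β = 0 := by
  classical
  by_contra hβ
  obtain ⟨g0, hg0, hmax⟩ := exists_max_val (1 : Valuation K NNReal) hα
  obtain ⟨g, g', h1, h2, h3, h4, h5⟩ :=
    exists_two_other_maximizers hG (1 : Valuation K NNReal) h0 hβ hg0 hmax
  have hv0 : (1 : Valuation K NNReal) (α.coeff g0) ≠ 0 := (Valuation.ne_zero_iff _).mpr hg0
  have hg : α.coeff g ≠ 0 := (Valuation.ne_zero_iff (1 : Valuation K NNReal)).mp (h4 ▸ hv0)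
  have hg' : α.coeff g' ≠ 0 := (Valuation.ne_zero_iff (1 : Valuation K NNReal)).mp (h5 ▸ hv0)
  rcases hsupp g0 hg0 with rfl | rfl <;> rcases hsupp g hg with rfl | rfl <;>
    rcases hsupp g' hg' with rfl | rfl <;> simp_all

end Vale.Agent.P201
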