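import Vale.Agent.P201.Basic
import Vale.Agent.P201.Dominance
import Vale.Agent.P201.Fiber
import Vale.Agent.P201.Two
import Vale.Agent.P201.Restrict

namespace Vale.Agent.P201

open MonoidAlgebra

variable {K : Type*} [Field K] {G : Type*} [Group G]

section ThreeTerm

variable {a b c : K} {g₁ g₂ g₃ : G}

theorem tri_coeff₁ (h12 : g₁ ≠ g₂) (h13 : g₁ ≠ g₃) :
    (single g₁ a + single g₂ b + single g₃ c : MonoidAlgebra K G).coeff g₁ = a := by
  classical
  simp [h12.symm, h13.symm]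

theorem tri_coeff₂ (h12 : g₁ ≠ g₂) (h23 : g₂ ≠ g₃) :
    (single g₁ a + single g₂ b + single g₃ c : MonoidAlgebra K G).coeff g₂ = b := by
  classical
  simp [h12, h23.symm]

theorem tri_coeff₃ (h13 : g₁ ≠ g₃) (h23 : g₂ ≠ g₃) :
    (single g₁ a + single g₂ b + single g₃ c : MonoidAlgebra K G).coeff g₃ = c := by
  classical
  simp [h13, h23]

theorem tri_supp (g : G)
    (hg : (single g₁ a + single g₂ b + single g₃ c : MonoidAlgebra K G).coeff g ≠ 0) :
    g = g₁ ∨ g = g₂ ∨ g = g₃ := by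
  classical
  by_contra hcon
  push Not at hcon
  apply hg
  simp [hcon.1.symm, hcon.2.1.symm, hcon.2.2.symm]

theorem tri_ne_zero (h12 : g₁ ≠ g₂) (h13 : g₁ ≠ g₃) (h23 : g₂ ≠ g₃)
    (habc : ¬ (a = 0 ∧ b = 0 ∧ c = 0)) :
    (single g₁ a + single g₂ b + single g₃ c : MonoidAlgebra K G) ≠ 0 := by
  intro h
  apply habc
  refine ⟨?_, ?_, ?_⟩
  · rw [← tri_coeff₁ (a := a) (b := b) (c := c) h12 h13, h]; rfl
  · rw [← tri_coeff₂ (a := a) (b := b) (c := c) h12 h23, h]; rfl
  · rw [← tri_coeff₃ (a := a) (b := b) (c := c) h13 h23, h]; rfl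

theorem tri_val_eq (hG : ∀ g : G, g ≠ 1 → ¬ IsOfFinOrder g)
    (h12 : g₁ ≠ g₂) (h13 : g₁ ≠ g₃) (h23 : g₂ ≠ g₃) (habc : ¬ (a = 0 ∧ b = 0 ∧ c = 0))
    {β : MonoidAlgebra K G} (hβ : β ≠ 0)
    (h0 : (single g₁ a + single g₂ b + single g₃ c) * β = 0 ∨
      β * (single g₁ a + single g₂ b + single g₃ c) = 0)
    {Γ₀ : Type*} [LinearOrderedCommGroupWithZero Γ₀] (v : Valuation K Γ₀) :
    v a ≠ 0 ∧ v b = v a ∧ v c = v a := by
  classical
  obtain ⟨g0, hg0, hmax⟩ := exists_max_val v (tri_ne_zero h12 h13 h23 habc)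
  obtain ⟨g, g', e1, e2, e3, e4, e5⟩ := exists_two_other_maximizers hG v h0 hβ hg0 hmax
  have hv0 := (Valuation.ne_zero_iff v).mpr hg0
  have hg := (Valuation.ne_zero_iff v).mp (e4 ▸ hv0)
  have hg' := (Valuation.ne_zero_iff v).mp (e5 ▸ hv0)
  have c1 := tri_coeff₁ (a := a) (b := b) (c := c) h12 h13
  have c2 := tri_coeff₂ (a := a) (b := b) (c := c) h12 h23
  have c3 := tri_coeff₃ (a := a) (b := b) (c := c) h13 h23
  rcases tri_supp g0 hg0 with rfl | rfl | rfl <;> rcases tri_supp g hg with rfl | rfl | rfl <;>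
    rcases tri_supp g' hg' with rfl | rfl | rfl <;>
    first
    | exact absurd rfl e1
    | exact absurd rfl e2
    | exact absurd rfl e3
    | (rw [c1, c2] at e4; rw [c1, c3] at e5; rw [c1] at hv0; exact ⟨hv0, e4, e5⟩)
    | (rw [c1, c3] at e4; rw [c1, c2] at e5; rw [c1] at hv0; exact ⟨hv0, e5, e4⟩)
    | (rw [c2, c1] at e4; rw [c2, c3] at e5; rw [c2] at hv0;
       exact ⟨e4 ▸ hv0, e4.symm, e5.trans e4.symm⟩)
    | (rw [c2, c3] at e4; rw [c2, c1] at e5; rw [c2] at hv0;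
       exact ⟨e5 ▸ hv0, e5.symm, e4.trans e5.symm⟩)
    | (rw [c3, c1] at e4; rw [c3, c2] at e5; rw [c3] at hv0;
       exact ⟨e4 ▸ hv0, e5.trans e4.symm, e4.symm⟩)
    | (rw [c3, c2] at e4; rw [c3, c1] at e5; rw [c3] at hv0;
       exact ⟨e5 ▸ hv0, e4.trans e5.symm, e5.symm⟩)

end ThreeTerm

theorem isIntegral_int_of_forall_valuationSubring {x : K}
    (h : ∀ O : ValuationSubring K, x ∈ O) : IsIntegral ℤ x := by
  have h1 : x ∈ (⨅ V : {V : ValuationSubring K // (∅ : Set K) ⊆ V.toSubring}, V.1.toSubring) := by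
    rw [Subring.mem_iInf]
    intro V
    exact h V.1
  rw [iInf_valuationSubring_superset] at h1
  have h2 : IsIntegral (Subring.closure (∅ : Set K)) x := h1
  have : Algebra.IsIntegral ℤ (Subring.closure (∅ : Set K)) := by
    constructor
    rintro ⟨y, hy⟩
    rw [Subring.closure_empty, Subring.mem_bot] at hy
    obtain ⟨n, rfl⟩ := hy
    have : (⟨(n : K), hy⟩ : Subring.closure (∅ : Set K)) = algebraMap ℤ _ n := by
      ext; simp
    rw [this]
    exact isIntegral_algebraMap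
  exact isIntegral_trans x h2

theorem isIntegral_div_of_forall_val_eq {a b : K} (ha : a ≠ 0)
    (h : ∀ O : ValuationSubring K, O.valuation b = O.valuation a) : IsIntegral ℤ (b / a) := by
  apply isIntegral_int_of_forall_valuationSubring
  intro O
  rw [← ValuationSubring.valuation_le_one_iff, map_div₀, h O,
    div_self ((Valuation.ne_zero_iff _).mpr ha)]

section ThreeTerm2

variable {a b c : K} {g₁ g₂ g₃ : G}

theorem tri_sum_abv (h12 : g₁ ≠ g₂) (h13 : g₁ ≠ g₃) (h23 : g₂ ≠ g₃) (v : AbsoluteValue K ℝ) :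
    ∑ g ∈ (single g₁ a + single g₂ b + single g₃ c : MonoidAlgebra K G).coeff.support,
      v ((single g₁ a + single g₂ b + single g₃ c : MonoidAlgebra K G).coeff g)
      = v a + v b + v c := by
  classical
  have hsub : (single g₁ a + single g₂ b + single g₃ c : MonoidAlgebra K G).coeff.support
      ⊆ {g₁, g₂, g₃} := by
    intro g hg
    have := tri_supp g (Finsupp.mem_support_iff.mp hg)
    simpa using this
  rw [Finset.sum_subset hsub (by
    intro g _ hg
    rw [Finsupp.notMem_support_iff.mp hg, map_zero])]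
  rw [Finset.sum_insert (by simp [h12, h13]), Finset.sum_insert (by simp [h23]),
    Finset.sum_singleton, tri_coeff₁ h12 h13, tri_coeff₂ h12 h23, tri_coeff₃ h13 h23, add_assoc]

theorem tri_abv_lt (hG : ∀ g : G, g ≠ 1 → ¬ IsOfFinOrder g)
    (h12 : g₁ ≠ g₂) (h13 : g₁ ≠ g₃) (h23 : g₂ ≠ g₃) (habc : ¬ (a = 0 ∧ b = 0 ∧ c = 0))
    {β : MonoidAlgebra K G} (hβ : β ≠ 0)
    (h0 : (single g₁ a + single g₂ b + single g₃ c) * β = 0 ∨
      β * (single g₁ a + single g₂ b + single g₃ c) = 0) (v : AbsoluteValue K ℝ) :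
    v a < v b + v c := by
  by_contra hge
  push Not at hge
  have hdom : ∑ g ∈ (single g₁ a + single g₂ b + single g₃ c : MonoidAlgebra K G).coeff.support,
      v ((single g₁ a + single g₂ b + single g₃ c : MonoidAlgebra K G).coeff g)
      ≤ 2 * v ((single g₁ a + single g₂ b + single g₃ c : MonoidAlgebra K G).coeff g₁) := by
    rw [tri_sum_abv h12 h13 h23, tri_coeff₁ h12 h13]
    linarith
  have hreg := regular_of_dominant hG v (tri_ne_zero h12 h13 h23 habc) hdom β
  rcases h0 with h0 | h0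
  · exact hβ (hreg.1 h0)
  · exact hβ (hreg.2 h0)

theorem tri_semigroup (h12 : g₁ ≠ g₂) (h13 : g₁ ≠ g₃) (ha : a ≠ 0)
    {β : MonoidAlgebra K G} (hβ : β ≠ 0)
    (h0 : (single g₁ a + single g₂ b + single g₃ c) * β = 0 ∨
      β * (single g₁ a + single g₂ b + single g₃ c) = 0) :
    (1 : G) ∈ Subsemigroup.closure {g₁⁻¹ * g₂, g₁⁻¹ * g₃} := by
  classical
  have c1 := tri_coeff₁ (a := a) (b := b) (c := c) h12 h13
  have h1 := one_mem_closure_of_annihilates (1 : Valuation K NNReal) h0 hβ (g0 := g₁)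
    (by rw [c1]; exact ha) (by
      intro g
      rw [c1, Valuation.one_apply_of_ne_zero ha]
      exact Valuation.one_apply_le_one _)
  refine Subsemigroup.closure_mono ?_ h1
  rintro s ⟨g, hg, hgv, rfl⟩
  rw [c1, Valuation.one_apply_of_ne_zero ha] at hgv
  have hg0 : (single g₁ a + single g₂ b + single g₃ c : MonoidAlgebra K G).coeff g ≠ 0 := by
    intro h
    rw [h, map_zero] at hgv
    exact zero_ne_one hgv
  rcases tri_supp g hg0 with rfl | rfl | rfl
  · exact absurd rfl hg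
  · exact Or.inl rfl
  · exact Or.inr rfl

end ThreeTerm2

end Vale.Agent.P201
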