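import Vale.Agent.P201.Three

namespace Vale.Agent.P201

open MonoidAlgebra

variable {K : Type*} [Field K] {G : Type*} [Group G]

theorem tri_no_UP_quotient (hG : ∀ g : G, g ≠ 1 → ¬ IsOfFinOrder g) {a b c : K} {x y : G}
    {β : MonoidAlgebra K G} (hβ : β ≠ 0) (habc : ¬ (a = 0 ∧ b = 0 ∧ c = 0))
    (hx : x ≠ 1) (hy : y ≠ 1) (hxy : x ≠ y)
    (h0 : (single 1 a + single x b + single y c) * β = 0 ∨
      β * (single 1 a + single x b + single y c) = 0)
    (N : Subgroup (Subgroup.closure ({x, y} : Set G))) [N.Normal]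
    (hUP : UniqueProds (Subgroup.closure ({x, y} : Set G) ⧸ N)) : N = ⊤ := by
  classical
  have hxH : x ∈ Subgroup.closure ({x, y} : Set G) := Subgroup.subset_closure (by simp)
  have hyH : y ∈ Subgroup.closure ({x, y} : Set G) := Subgroup.subset_closure (by simp)
  have hαH : ∀ g, (single 1 a + single x b + single y c : MonoidAlgebra K G).coeff g ≠ 0 →
      g ∈ Subgroup.closure ({x, y} : Set G) := by
    intro g hg
    rcases tri_supp g hg with rfl | rfl | rfl
    · exact Subgroup.one_mem _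
    · exact hxH
    · exact hyH
  obtain ⟨αH, βH, hmap, hβH, h0H⟩ := descend_to_subgroup _ hαH hβ h0
  have coeffα : ∀ z : Subgroup.closure ({x, y} : Set G), αH.coeff z =
      (single 1 a + single x b + single y c : MonoidAlgebra K G).coeff z := by
    intro z
    rw [← hmap]
    exact (Finsupp.mapDomain_apply (Subgroup.subtype_injective _) αH.coeff z).symm
  have hαH0 : αH ≠ 0 := by
    rintro rfl
    rw [mapDomain_zero] at hmap
    exact tri_ne_zero hx.symm hy.symm hxy habc hmap.symm
  have hGH : ∀ z : Subgroup.closure ({x, y} : Set G), z ≠ 1 → ¬ IsOfFinOrder z := by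
    intro z hz hfin
    exact hG z (by simpa using hz) (MonoidHom.isOfFinOrder (Subgroup.subtype _) hfin)
  by_contra hN
  have hnot : ¬ ((⟨x, hxH⟩ : Subgroup.closure ({x, y} : Set G)) ∈ N ∧
      (⟨y, hyH⟩ : Subgroup.closure ({x, y} : Set G)) ∈ N) := by
    rintro ⟨h1, h2⟩
    apply hN
    have hsubN : Subgroup.closure ({x, y} : Set G) ≤ N.map (Subgroup.subtype _) := by
      apply (Subgroup.closure_le _).mpr
      intro z hz
      rcases hz with rfl | rfl
      · exact ⟨_, h1, rfl⟩
      · exact ⟨_, h2, rfl⟩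
    rw [eq_top_iff]
    intro z _
    obtain ⟨w, hw, hwz⟩ := hsubN z.2
    have : w = z := Subtype.ext hwz
    exact this ▸ hw
  have hpair : ∀ q : Subgroup.closure ({x, y} : Set G) ⧸ N, ∃ p₁ p₂, ∀ z,
      (fiberPart (QuotientGroup.mk' N) q αH).coeff z ≠ 0 → z = p₁ ∨ z = p₂ := by
    intro q
    have hz3 : ∀ z, (fiberPart (QuotientGroup.mk' N) q αH).coeff z ≠ 0 →
        QuotientGroup.mk' N z = q ∧ (z = 1 ∨ z = ⟨x, hxH⟩ ∨ z = ⟨y, hyH⟩) := by
      intro z hz
      rw [fiberPart_coeff] at hz
      by_cases hq : QuotientGroup.mk' N z = q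
      · rw [if_pos hq, coeffα] at hz
        refine ⟨hq, ?_⟩
        rcases tri_supp _ hz with h | h | h
        · exact Or.inl (Subtype.ext h)
        · exact Or.inr (Or.inl (Subtype.ext h))
        · exact Or.inr (Or.inr (Subtype.ext h))
      · rw [if_neg hq] at hz
        exact absurd rfl hz
    by_cases hq1 : q = 1
    · by_cases hxN : (⟨x, hxH⟩ : Subgroup.closure ({x, y} : Set G)) ∈ N
      · have hyN : (⟨y, hyH⟩ : Subgroup.closure ({x, y} : Set G)) ∉ N := fun h => hnot ⟨hxN, h⟩
        refine ⟨1, ⟨x, hxH⟩, fun z hz => ?_⟩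
        obtain ⟨e, h | h | h⟩ := hz3 z hz
        · exact Or.inl h
        · exact Or.inr h
        · exfalso
          apply hyN
          rw [h, hq1] at e
          exact (QuotientGroup.eq_one_iff _).mp e
      · refine ⟨1, ⟨y, hyH⟩, fun z hz => ?_⟩
        obtain ⟨e, h | h | h⟩ := hz3 z hz
        · exact Or.inl h
        · exfalso
          apply hxN
          rw [h, hq1] at e
          exact (QuotientGroup.eq_one_iff _).mp e
        · exact Or.inr h
    · refine ⟨⟨x, hxH⟩, ⟨y, hyH⟩, fun z hz => ?_⟩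
      obtain ⟨e, h | h | h⟩ := hz3 z hz
      · exfalso
        apply hq1
        rw [← e, h, map_one]
      · exact Or.inl h
      · exact Or.inr h
  rcases h0H with h | h
  · obtain ⟨q, d, hq, hd, hqd⟩ := exists_fiber_zero_divisors (QuotientGroup.mk' N) hαH0 hβH h
    obtain ⟨p₁, p₂, hp⟩ := hpair q
    exact hd (regular_of_support_subset_pair hGH hq hp (Or.inl hqd))
  · obtain ⟨d, q, hd, hq, hqd⟩ := exists_fiber_zero_divisors (QuotientGroup.mk' N) hβH hαH0 h
    obtain ⟨p₁, p₂, hp⟩ := hpair q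
    exact hd (regular_of_support_subset_pair hGH hq hp (Or.inr hqd))

end Vale.Agent.P201
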